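import Vale.Agent.P372.Example

namespace Vale.Agent.Results.P372.ZeroKey

open Vale.Agent.P372

/-- There is an entangled state on `ℂ^16 ⊗ ℂ^16` whose distillable secret key is zero. -/
theorem result : ∃ ρ : Matrix (Fin 16 × Fin 16) (Fin 16 × Fin 16) ℂ,
    IsState ρ ∧ ¬ IsSeparable ρ ∧
    (∃ (dE : ℕ) (ψ : (Fin 16 × Fin 16) × Fin dE → ℂ), IsPurification ψ ρ) ∧
    ∀ (dE : ℕ) (ψ : (Fin 16 × Fin 16) × Fin dE → ℂ), IsPurification ψ ρ →
      distillableKey ψ = 0 :=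
  exists_example

end Vale.Agent.Results.P372.ZeroKey
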